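import Mathlib
import Vale.Agent.P068.Defs
import Vale.Agent.P068.Cap

/-- The matroid intersection conjecture (part (b) of the problem) for `M` paired with a direct sum of
uniform matroids `N = ⨁ U_{r i}(A i)`, where `A i = E ∩ c⁻¹{i}` are the classes and `r i ∈ ℕ ∪ {∞}`
the ranks (independent sets of `N`: at most `r i` elements in each class), provided that all but
countably many of the classes of finite rank are finite, and every circuit of `M` that is independent
in `N` is finite (this holds for every finitary `M`). The ground set is arbitrary. -/
theorem Vale.Agent.Results.P068.CapacityIntersection.result {α ι : Type*} (M : Matroid α)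
    (c : α → ι) (r : ι → ℕ∞)
    (hcount : {i | r i ≠ ⊤ ∧ (M.E ∩ c ⁻¹' {i}).Infinite}.Countable)
    (hM : ∀ C, M.IsCircuit C → (Vale.Agent.P068.capMatroid M.E c r).Indep C → C.Finite) :
    Vale.Agent.P068.SatisfiesIntersection M (Vale.Agent.P068.capMatroid M.E c r) :=
  Vale.Agent.P068.cap_main M c r hcount hM
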