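import Mathlib
import Vale.Agent.P068.Defs
import Vale.Agent.P068.Gen4

/-- The matroid intersection conjecture (part (b) of the problem) for a pair `(M, N)` on a common
ground set of arbitrary cardinality, where `N` is finitary with a countable base and every circuit
of `M` that is independent in `N` is finite (this holds for every finitary `M`, of any rank).
`SatisfiesIntersection M N` is symmetric in `M` and `N`, so this includes every pair of finitary
matroids at least one of which has countable rank. -/
theorem Vale.Agent.Results.P068.CountableRank.result {α : Type*} (M N : Matroid α)
    (hE : M.E = N.E) [N.Finitary] (hM : ∀ C, M.IsCircuit C → N.Indep C → C.Finite)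
    (B : Set α) (hB : N.IsBase B) (hBc : B.Countable) :
    Vale.Agent.P068.SatisfiesIntersection M N :=
  Vale.Agent.P068.Gen.main_cr hE hM fun _ hI => Vale.Agent.P068.Gen.countable_indep_of_base N hB hBc hI
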