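import Mathlib
import Vale.Agent.P068.Defs
import Vale.Agent.P068.NearlyDefs
import Vale.Agent.P068.Mixed

/-- The matroid intersection conjecture (part (b) of the problem) on a countable ground set for
`M = M₁ ⊕ M₂` and `N = N₁ ⊕ N₂`, where `M₁`, `N₁` are nearly finitary and `M₂`, `N₂` are nearly
cofinitary, that is, their duals are nearly finitary. The decompositions of `M` and of `N` need not
be aligned. Every finitary matroid is nearly finitary. -/
theorem Vale.Agent.Results.P068.MixedSumsCountable.result {α : Type*} (M₁ M₂ N₁ N₂ : Matroid α)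
    (hM : Disjoint M₁.E M₂.E) (hN : Disjoint N₁.E N₂.E) (hE : M₁.E ∪ M₂.E = N₁.E ∪ N₂.E)
    (hc : (M₁.E ∪ M₂.E).Countable)
    (h1 : Vale.Agent.P068.IsNearlyFinitary M₁) (h2 : Vale.Agent.P068.IsNearlyFinitary M₂✶)
    (h3 : Vale.Agent.P068.IsNearlyFinitary N₁) (h4 : Vale.Agent.P068.IsNearlyFinitary N₂✶) :
    Vale.Agent.P068.SatisfiesIntersection (M₁.disjointSum M₂ hM) (N₁.disjointSum N₂ hN) :=
  Vale.Agent.P068.Gen.mixed_countable M₁ M₂ N₁ N₂ hM hN hE hc h1 h2 h3 h4
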