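import Mathlib
import Vale.Agent.P068.Defs
import Vale.Agent.P068.Gen5

/-- The matroid intersection conjecture (part (b) of the problem) for a pair `(M, N)` on a common
ground set, assuming two things. First, every set all of whose finite subsets are independent in
`N` is countable; this is automatic when the ground set is countable. Second, every set `J` all of
whose finite subsets are independent in both `M` and `N` contains a set `J'` independent in both,
with `J \ J'` finite; this holds whenever `M` and `N` are both nearly finitary. -/
theorem Vale.Agent.Results.P068.NearlyFinitary.result {α : Type*} (M N : Matroid α)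
    (hE : M.E = N.E)
    (hcr : ∀ I : Set α, (∀ F : Set α, F ⊆ I → F.Finite → N.Indep F) → I.Countable)
    (hX : ∀ J : Set α, (∀ F : Set α, F ⊆ J → F.Finite → M.Indep F ∧ N.Indep F) →
      ∃ J' : Set α, J' ⊆ J ∧ (J \ J').Finite ∧ M.Indep J' ∧ N.Indep J') :
    Vale.Agent.P068.SatisfiesIntersection M N :=
  Vale.Agent.P068.Gen.main_excess hE hcr hX
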