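import Mathlib
import Vale.Agent.P068.Defs
import Vale.Agent.P068.Gen5

/-- The matroid intersection conjecture (part (b) of the problem) for every pair `(M, N)` of nearly
finitary matroids on a common countable ground set: each set all of whose finite subsets are
independent becomes independent after the removal of finitely many of its elements. -/
theorem Vale.Agent.Results.P068.NearlyFinitaryCountable.result {α : Type*} (M N : Matroid α)
    (hE : M.E = N.E) (hc : M.E.Countable)
    (hM : ∀ J : Set α, (∀ F : Set α, F ⊆ J → F.Finite → M.Indep F) →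
      ∃ X : Set α, X ⊆ J ∧ X.Finite ∧ M.Indep (J \ X))
    (hN : ∀ J : Set α, (∀ F : Set α, F ⊆ J → F.Finite → N.Indep F) →
      ∃ X : Set α, X ⊆ J ∧ X.Finite ∧ N.Indep (J \ X)) :
    Vale.Agent.P068.SatisfiesIntersection M N := by
  refine Vale.Agent.P068.Gen.main_excess hE ?_ ?_
  · intro I hI
    refine hc.mono fun x hx => ?_
    have h := hI {x} (Set.singleton_subset_iff.2 hx) (Set.finite_singleton x)
    rw [hE]
    exact h.subset_ground rfl
  · intro J hJ
    obtain ⟨X, -, hXf, hX⟩ := hM J fun F hF hFf => (hJ F hF hFf).1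
    obtain ⟨Y, -, hYf, hY⟩ := hN J fun F hF hFf => (hJ F hF hFf).2
    refine ⟨J \ (X ∪ Y), Set.sdiff_subset, ?_, ?_, ?_⟩
    · refine (hXf.union hYf).subset ?_
      rintro x ⟨hx, hx2⟩
      by_contra hcon
      exact hx2 ⟨hx, hcon⟩
    · exact hX.subset (Set.sdiff_subset_sdiff_right Set.subset_union_left)
    · exact hY.subset (Set.sdiff_subset_sdiff_right Set.subset_union_right)
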